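/-
helper9 -- S0356 squad (track D), leaf S2 "Exit_n": the combinatorial decomposition of the sweep
of the corner simplex `Tset (Fin n)` (pure sets / algebra; generalises S0355 package C1).
Same names and signatures as `Crest.Agent.Helper28.S0356.Blueprint`.
-/
import Crest.Agent.Helper28.S0356.Defs

set_option autoImplicit false
open MeasureTheory
open scoped ENNReal Pointwise

namespace Crest.Agent.Helper9.S0356

open Crest.Agent.Helper28.S0355 (sweep Z)
open Crest.Agent.Helper28.S0356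

theorem mem_Tset_iff {n : ℕ} (x : Fin n → ℝ) :
    x ∈ Tset (Fin n) ↔ ∀ k : Fin n ⊕ Unit, lcS k x ≤ bcS k := by
  constructor
  · rintro ⟨h0, h1⟩ k
    rcases k with j | b
    · have := h0 j
      simp only [lcS, bcS]
      linarith
    · simpa [lcS, bcS] using h1
  · intro h
    refine ⟨fun i => ?_, ?_⟩
    · have := h (Sum.inl i)
      simp only [lcS, bcS] at this
      linarith
    · simpa [lcS, bcS] using h (Sum.inr ())

theorem lcS_sub_smul {n : ℕ} (k : Fin n ⊕ Unit) (x u : Fin n → ℝ) (t : ℝ) :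
    lcS k (x - t • u) = lcS k x - t * lcS k u := by
  rcases k with j | b
  · simp only [lcS, Pi.sub_apply, Pi.smul_apply, smul_eq_mul]
    ring
  · simp only [lcS, Pi.sub_apply, Pi.smul_apply, smul_eq_mul, Finset.sum_sub_distrib,
      Finset.mul_sum]

theorem sweep_Tset_subset {n : ℕ} (u : Fin n → ℝ) :
    sweep (Tset (Fin n)) u ⊆
      Tset (Fin n) ∪ ⋃ k : Fin n ⊕ Unit, if 0 < lcS k u then sweep (facetS k) u else ∅ := by
  rintro x ⟨t, ⟨ht0, ht1⟩, hxt⟩
  by_cases hx : x ∈ Tset (Fin n)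
  · exact Or.inl hx
  right
  rw [mem_Tset_iff] at hxt hx
  push Not at hx
  obtain ⟨k0, hk0⟩ := hx
  -- `k0` is violated at `x` but not at `x - t • u`, so `lcS k0 u > 0` and `t > 0`.
  have hk0t := hxt k0
  rw [lcS_sub_smul] at hk0t
  have htu : 0 < t * lcS k0 u := by linarith
  have hk0u : 0 < lcS k0 u := by
    by_contra hcon
    push Not at hcon
    have : t * lcS k0 u ≤ 0 := mul_nonpos_of_nonneg_of_nonpos ht0 hcon
    linarith
  -- the candidates
  set F : Finset (Fin n ⊕ Unit) := Finset.univ.filter (fun k => 0 < lcS k u) with hF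
  have hFne : F.Nonempty := ⟨k0, by simp [hF, hk0u]⟩
  obtain ⟨ks, hksF, hmax⟩ :=
    Finset.exists_max_image F (fun k => (lcS k x - bcS k) / lcS k u) hFne
  have hksu : 0 < lcS ks u := by simpa [hF] using hksF
  set s0 : ℝ := (lcS ks x - bcS ks) / lcS ks u with hs0
  have hs0_pos : 0 < s0 := by
    have h1 : (lcS k0 x - bcS k0) / lcS k0 u ≤ s0 := hmax k0 (by simp [hF, hk0u])
    have h2 : 0 < (lcS k0 x - bcS k0) / lcS k0 u := div_pos (by linarith) hk0u
    linarith
  have hs0_le : s0 ≤ t := by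
    have := hxt ks
    rw [lcS_sub_smul] at this
    rw [hs0, div_le_iff₀ hksu]
    linarith
  have htight : lcS ks (x - s0 • u) = bcS ks := by
    rw [lcS_sub_smul, hs0, div_mul_cancel₀ _ hksu.ne']
    ring
  have hmemT : x - s0 • u ∈ Tset (Fin n) := by
    rw [mem_Tset_iff]
    intro k
    rw [lcS_sub_smul]
    by_cases hku : 0 < lcS k u
    · have h1 : (lcS k x - bcS k) / lcS k u ≤ s0 := hmax k (by simp [hF, hku])
      rw [div_le_iff₀ hku] at h1
      linarith
    · push Not at hku
      have h1 := hxt k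
      rw [lcS_sub_smul] at h1
      have h2 : t * lcS k u ≤ s0 * lcS k u := mul_le_mul_of_nonpos_right hs0_le hku
      linarith
  refine Set.mem_iUnion.2 ⟨ks, ?_⟩
  rw [if_pos hksu]
  exact ⟨s0, ⟨hs0_pos.le, hs0_le.trans ht1⟩, hmemT, htight⟩

theorem Tset_inter_sweep_facetS_subset {n : ℕ} (u : Fin n → ℝ) (k : Fin n ⊕ Unit)
    (hk : 0 < lcS k u) : Tset (Fin n) ∩ sweep (facetS k) u ⊆ {x | lcS k x = bcS k} := by
  rintro x ⟨hx, t, ⟨ht0, _⟩, _, htight⟩
  rw [lcS_sub_smul] at htight
  have h1 := (mem_Tset_iff x).1 hx k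
  have h2 : 0 ≤ t * lcS k u := mul_nonneg ht0 hk.le
  show lcS k x = bcS k
  linarith

theorem sweep_facetS_inter_subset {n : ℕ} (u : Fin n → ℝ) (k k' : Fin n ⊕ Unit)
    (hk : 0 < lcS k u) (hk' : 0 < lcS k' u) :
    sweep (facetS k) u ∩ sweep (facetS k') u ⊆
      {x | lcS k' u * lcS k x - lcS k u * lcS k' x = lcS k' u * bcS k - lcS k u * bcS k'} := by
  rintro x ⟨⟨t, _, hT, htight⟩, ⟨t', _, hT', htight'⟩⟩
  rw [lcS_sub_smul] at htight htight'
  -- the other constraint at each of the two points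
  have h1 := (mem_Tset_iff _).1 hT k'
  have h2 := (mem_Tset_iff _).1 hT' k
  rw [lcS_sub_smul] at h1 h2
  have ht't : t' ≤ t := by
    have : t' * lcS k' u ≤ t * lcS k' u := by linarith
    exact le_of_mul_le_mul_right this hk'
  have htt' : t ≤ t' := by
    have : t * lcS k u ≤ t' * lcS k u := by linarith
    exact le_of_mul_le_mul_right this hk
  have hEq : t = t' := le_antisymm htt' ht't
  subst hEq
  show lcS k' u * lcS k x - lcS k u * lcS k' x = lcS k' u * bcS k - lcS k u * bcS k'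
  have e1 : lcS k x = bcS k + t * lcS k u := by linarith
  have e2 : lcS k' x = bcS k' + t * lcS k' u := by linarith
  rw [e1, e2]
  ring

end Crest.Agent.Helper9.S0356
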