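/-
helper9 -- S0356 squad (track D), leaf PR "Product lemma" (hedge / SECOND copy):
`SweepLB` is stable under products (Tonelli; no facets).  Same name and signature as
`Crest.Agent.Helper28.S0356.Blueprint.sweepLB_prod`.
-/
import Crest.Agent.Helper28.S0356.Defs

set_option autoImplicit false
open MeasureTheory
open scoped ENNReal Pointwise

namespace Crest.Agent.Helper9.S0356

open Crest.Agent.Helper28.S0355 (sweep Z)
open Crest.Agent.Helper28.S0356

/-- `sweep C u` is the image of `C × [0,1]` under `(z, t) ↦ z + t • u`. -/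
theorem sweep_eq_image_prod {V : Type*} [AddCommGroup V] [Module ℝ V] (C : Set V) (u : V) :
    sweep C u = (fun q : V × ℝ => q.1 + q.2 • u) '' (C ×ˢ Set.Icc (0 : ℝ) 1) := by
  ext x
  constructor
  · rintro ⟨t, ht, hx⟩
    exact ⟨(x - t • u, t), ⟨hx, ht⟩, by simp⟩
  · rintro ⟨⟨z, t⟩, ⟨hz, ht⟩, rfl⟩
    exact ⟨t, ht, by simpa using hz⟩

theorem isCompact_sweep_of_isCompact {V : Type*} [NormedAddCommGroup V] [NormedSpace ℝ V]
    {C : Set V} (hC : IsCompact C) (u : V) : IsCompact (sweep C u) := by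
  rw [sweep_eq_image_prod]
  exact (hC.prod isCompact_Icc).image (by fun_prop)

theorem sweepLB_prod {V₁ V₂ : Type*}
    [NormedAddCommGroup V₁] [NormedSpace ℝ V₁] [MeasureSpace V₁] [BorelSpace V₁]
    [SecondCountableTopology V₁] [SigmaFinite (volume : Measure V₁)]
    [(volume : Measure V₁).IsAddLeftInvariant] [IsFiniteMeasureOnCompacts (volume : Measure V₁)]
    [NormedAddCommGroup V₂] [NormedSpace ℝ V₂] [MeasureSpace V₂] [BorelSpace V₂]
    [SecondCountableTopology V₂] [SigmaFinite (volume : Measure V₂)]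
    [(volume : Measure V₂).IsAddLeftInvariant] [IsFiniteMeasureOnCompacts (volume : Measure V₂)]
    (K₁ : Set V₁) (K₂ : Set V₂) (H₁ : V₁ → ℝ) (H₂ : V₂ → ℝ)
    (hK₁ : IsCompact K₁) (hK₂ : IsCompact K₂) (hc₂ : Convex ℝ K₂)
    (h₁ : SweepLB K₁ H₁) (h₂ : SweepLB K₂ H₂)
    (hom₁ : ∀ s : ℝ, 0 ≤ s → ∀ u, H₁ (s • u) = s * H₁ u)
    (nn₁ : ∀ u, 0 ≤ H₁ u) (nn₂ : ∀ u, 0 ≤ H₂ u) :
    SweepLB (K₁ ×ˢ K₂)
      (fun u : V₁ × V₂ => (volume K₂).toReal * H₁ u.1 + (volume K₁).toReal * H₂ u.2) := by
  unfold SweepLB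
  rintro ⟨u₁, u₂⟩
  set S : Set (V₁ × V₂) := sweep (K₁ ×ˢ K₂) (u₁, u₂) with hS
  have hSc : IsCompact S := isCompact_sweep_of_isCompact (hK₁.prod hK₂) _
  have hSm : MeasurableSet S := hSc.isClosed.measurableSet
  have hT₂c : IsCompact (sweep K₂ u₂) := isCompact_sweep_of_isCompact hK₂ _
  have hT₂m : MeasurableSet (sweep K₂ u₂) := hT₂c.isClosed.measurableSet
  have hfin₁ : volume K₁ ≠ ⊤ := hK₁.measure_lt_top.ne
  have hfin₂ : volume K₂ ≠ ⊤ := hK₂.measure_lt_top.ne
  -- the time sets
  set J : V₂ → Set ℝ := fun x₂ => {t : ℝ | t ∈ Set.Icc (0 : ℝ) 1 ∧ x₂ - t • u₂ ∈ K₂} with hJ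
  -- Tonelli: the time sets have total length `volume K₂`
  have hC : ∫⁻ x₂, volume (J x₂) ∂(volume : Measure V₂) = volume K₂ := by
    set D : Set (V₂ × ℝ) := {q | q.2 ∈ Set.Icc (0 : ℝ) 1 ∧ q.1 - q.2 • u₂ ∈ K₂} with hD
    have hDc : IsClosed D :=
      (isClosed_Icc.preimage continuous_snd).inter (hK₂.isClosed.preimage (by fun_prop))
    have hDm : MeasurableSet D := hDc.measurableSet
    have e1 := Measure.prod_apply (μ := (volume : Measure V₂)) (ν := (volume : Measure ℝ)) hDm
    have e2 := Measure.prod_apply_symm (μ := (volume : Measure V₂)) (ν := (volume : Measure ℝ)) hDm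
    have e3 : ∀ t : ℝ, (volume : Measure V₂) ((fun x => (x, t)) ⁻¹' D)
        = (Set.Icc (0 : ℝ) 1).indicator (fun _ => volume K₂) t := by
      intro t
      by_cases ht : t ∈ Set.Icc (0 : ℝ) 1
      · rw [Set.indicator_of_mem ht]
        have : (fun x : V₂ => (x, t)) ⁻¹' D = (fun x : V₂ => (-(t • u₂)) + x) ⁻¹' K₂ := by
          ext x
          simp only [hD, Set.mem_preimage, Set.mem_ofPred_eq, ht, true_and, neg_add_eq_sub]
        rw [this, measure_preimage_add]
      · rw [Set.indicator_of_notMem ht]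
        have : (fun x : V₂ => (x, t)) ⁻¹' D = ∅ := by
          ext x
          simp only [hD, Set.mem_preimage, Set.mem_ofPred_eq, ht, false_and,
            Set.mem_empty_iff_false]
        rw [this, measure_empty]
    have e4 : ∫⁻ x₂, volume (J x₂) ∂(volume : Measure V₂)
        = ∫⁻ x₂, (volume : Measure ℝ) (Prod.mk x₂ ⁻¹' D) ∂(volume : Measure V₂) := rfl
    rw [e4, ← e1, e2]
    simp_rw [e3]
    rw [lintegral_indicator_const measurableSet_Icc, Real.volume_Icc]
    simp
  -- the slice over `x₂`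
  have hpt : ∀ x₂ : V₂,
      (sweep K₂ u₂).indicator (fun _ => volume K₁) x₂ + ENNReal.ofReal (H₁ u₁) * volume (J x₂)
        ≤ (volume : Measure V₁) ((fun x₁ => (x₁, x₂)) ⁻¹' S) := by
    intro x₂
    by_cases hx : x₂ ∈ sweep K₂ u₂
    · rw [Set.indicator_of_mem hx]
      have hJne : (J x₂).Nonempty := by
        obtain ⟨t, ht, hxt⟩ := hx
        exact ⟨t, ht, hxt⟩
      have hJcl : IsClosed (J x₂) :=
        isClosed_Icc.inter (hK₂.isClosed.preimage (by fun_prop))
      have hJc : IsCompact (J x₂) :=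
        isCompact_Icc.of_isClosed_subset hJcl (fun t ht => ht.1)
      obtain ⟨a, ha⟩ := hJc.exists_isLeast hJne
      obtain ⟨b, hb⟩ := hJc.exists_isGreatest hJne
      have hab : a ≤ b := ha.2 hb.1
      have hJsub : J x₂ ⊆ Set.Icc a b := fun t ht => ⟨ha.2 ht, hb.2 ht⟩
      have hsubJ : Set.Icc a b ⊆ J x₂ := by
        intro t ht
        refine ⟨⟨ha.1.1.1.trans ht.1, ht.2.trans hb.1.1.2⟩, ?_⟩
        by_cases hab' : a = b
        · have hta : t = a := le_antisymm (hab' ▸ ht.2) ht.1
          rw [hta]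
          exact ha.1.2
        · have hlt : a < b := lt_of_le_of_ne hab hab'
          have hba : b - a ≠ 0 := by linarith
          have hθ : (t - a) / (b - a) ∈ Set.Icc (0 : ℝ) 1 := by
            constructor
            · exact div_nonneg (by linarith [ht.1]) (by linarith)
            · rw [div_le_one (by linarith)]
              linarith [ht.2]
          have hmem := hc₂.add_smul_sub_mem ha.1.2 hb.1.2 hθ
          have key : x₂ - t • u₂
              = (x₂ - a • u₂) + ((t - a) / (b - a)) • ((x₂ - b • u₂) - (x₂ - a • u₂)) := by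
            have e : t = a + (t - a) / (b - a) * (b - a) := by
              rw [div_mul_cancel₀ _ hba]
              ring
            conv_lhs => rw [e]
            module
          rw [key]
          exact hmem
      -- the slice contains a translate of a sweep of `K₁`
      have hincl : (fun x₁ : V₁ => (-(a • u₁)) + x₁) ⁻¹' sweep K₁ ((b - a) • u₁)
          ⊆ (fun x₁ => (x₁, x₂)) ⁻¹' S := by
        rintro x₁ ⟨s, hs, hx₁⟩
        have ht : a + s * (b - a) ∈ Set.Icc a b := by
          constructor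
          · nlinarith [hs.1]
          · nlinarith [hs.2]
        have htJ := hsubJ ht
        refine ⟨a + s * (b - a), htJ.1, ?_, ?_⟩
        · show x₁ - (a + s * (b - a)) • u₁ ∈ K₁
          have e : x₁ - (a + s * (b - a)) • u₁ = -(a • u₁) + x₁ - s • (b - a) • u₁ := by
            module
          rw [e]
          exact hx₁
        · exact htJ.2
      have hvol : volume K₁ + ENNReal.ofReal (H₁ u₁) * ENNReal.ofReal (b - a)
          ≤ (volume : Measure V₁) ((fun x₁ => (x₁, x₂)) ⁻¹' S) := by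
        calc volume K₁ + ENNReal.ofReal (H₁ u₁) * ENNReal.ofReal (b - a)
            = volume K₁ + ENNReal.ofReal (H₁ ((b - a) • u₁)) := by
              rw [hom₁ (b - a) (by linarith) u₁, mul_comm (b - a), ENNReal.ofReal_mul (nn₁ u₁)]
          _ ≤ volume (sweep K₁ ((b - a) • u₁)) := h₁ _
          _ = volume ((fun x₁ : V₁ => (-(a • u₁)) + x₁) ⁻¹' sweep K₁ ((b - a) • u₁)) :=
              (measure_preimage_add _ _ _).symm
          _ ≤ _ := measure_mono hincl
      have hJvol : volume (J x₂) ≤ ENNReal.ofReal (b - a) :=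
        calc volume (J x₂) ≤ volume (Set.Icc a b) := measure_mono hJsub
          _ = ENNReal.ofReal (b - a) := Real.volume_Icc
      calc volume K₁ + ENNReal.ofReal (H₁ u₁) * volume (J x₂)
          ≤ volume K₁ + ENNReal.ofReal (H₁ u₁) * ENNReal.ofReal (b - a) := by
            gcongr
        _ ≤ _ := hvol
    · rw [Set.indicator_of_notMem hx]
      have hJe : J x₂ = ∅ := by
        ext t
        simp only [Set.mem_empty_iff_false, iff_false]
        intro ht
        exact hx ⟨t, ht.1, ht.2⟩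
      rw [hJe]
      simp
  have hvolS : volume S
      = ∫⁻ x₂, (volume : Measure V₁) ((fun x₁ => (x₁, x₂)) ⁻¹' S) ∂(volume : Measure V₂) := by
    rw [Measure.volume_eq_prod, Measure.prod_apply_symm hSm]
  have hfm : Measurable ((sweep K₂ u₂).indicator (fun _ : V₂ => volume K₁)) :=
    measurable_const.indicator hT₂m
  have hint : volume K₁ * volume (sweep K₂ u₂) + ENNReal.ofReal (H₁ u₁) * volume K₂
      ≤ volume S := by
    rw [hvolS]
    calc volume K₁ * volume (sweep K₂ u₂) + ENNReal.ofReal (H₁ u₁) * volume K₂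
        = ∫⁻ x₂, ((sweep K₂ u₂).indicator (fun _ => volume K₁) x₂
            + ENNReal.ofReal (H₁ u₁) * volume (J x₂)) ∂(volume : Measure V₂) := by
          rw [lintegral_add_left hfm, lintegral_indicator_const hT₂m,
            lintegral_const_mul' _ _ ENNReal.ofReal_ne_top, hC]
      _ ≤ _ := lintegral_mono hpt
  -- assemble
  show volume (K₁ ×ˢ K₂)
      + ENNReal.ofReal ((volume K₂).toReal * H₁ u₁ + (volume K₁).toReal * H₂ u₂) ≤ volume S
  have hprod : volume (K₁ ×ˢ K₂) = volume K₁ * volume K₂ := by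
    rw [Measure.volume_eq_prod, Measure.prod_prod]
  have hsplit : ENNReal.ofReal ((volume K₂).toReal * H₁ u₁ + (volume K₁).toReal * H₂ u₂)
      = volume K₂ * ENNReal.ofReal (H₁ u₁) + volume K₁ * ENNReal.ofReal (H₂ u₂) := by
    rw [ENNReal.ofReal_add (mul_nonneg ENNReal.toReal_nonneg (nn₁ _))
        (mul_nonneg ENNReal.toReal_nonneg (nn₂ _)),
      ENNReal.ofReal_mul ENNReal.toReal_nonneg, ENNReal.ofReal_mul ENNReal.toReal_nonneg,
      ENNReal.ofReal_toReal hfin₂, ENNReal.ofReal_toReal hfin₁]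
  rw [hprod, hsplit]
  calc volume K₁ * volume K₂
        + (volume K₂ * ENNReal.ofReal (H₁ u₁) + volume K₁ * ENNReal.ofReal (H₂ u₂))
      = volume K₁ * (volume K₂ + ENNReal.ofReal (H₂ u₂))
          + ENNReal.ofReal (H₁ u₁) * volume K₂ := by ring
    _ ≤ volume K₁ * volume (sweep K₂ u₂) + ENNReal.ofReal (H₁ u₁) * volume K₂ := by
        gcongr
        exact h₂ u₂
    _ ≤ volume S := hint

end Crest.Agent.Helper9.S0356
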